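import Mathlib

/-!
# Bertini on open subsets of complex coordinate space

`generic_ne_zero` : let `A p : E → F` be a `C^1` family of surjective linear maps,
`p` in an open subset of `P`, with `dim P < dim F`.  Then the set of `e` killed by some
`A p` has Hausdorff dimension at most `dim E - 1`.

`bertini` : countably many families of functions whose one-jets are generated have
generic linear combinations with independent differentials at all common zeros.
-/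

open Set Filter Topology Module MeasureTheory
open scoped ENNReal NNReal

namespace Vale.Agent.P299.H949

section Generic

variable {P E F : Type*} [NormedAddCommGroup P] [NormedSpace ℝ P] [FiniteDimensional ℝ P]
  [NormedAddCommGroup E] [NormedSpace ℝ E] [FiniteDimensional ℝ E]
  [NormedAddCommGroup F] [NormedSpace ℝ F] [FiniteDimensional ℝ F]

theorem local_dimH {O : Set P} (hO : IsOpen O) {A : P → E →L[ℝ] F} (hA : ContDiffOn ℝ 1 A O)
    {p₀ : P} (hp₀ : p₀ ∈ O) (hs : Function.Surjective (A p₀)) :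
    ∃ V ∈ 𝓝 p₀, dimH {e : E | ∃ p ∈ V, A p e = 0} ≤
      ((finrank ℝ P + (finrank ℝ E - finrank ℝ F) : ℕ) : ℝ≥0∞) := by
  obtain ⟨R₀, hR₀⟩ := LinearMap.exists_rightInverse_of_surjective (A p₀ : E →ₗ[ℝ] F)
    (LinearMap.range_eq_top.2 hs)
  set R : F →L[ℝ] E := LinearMap.toContinuousLinearMap R₀ with hR
  have hAR : ∀ y, A p₀ (R y) = y := fun y => by
    have := congrArg (fun f : F →ₗ[ℝ] F => f y) hR₀
    simpa [hR] using this
  set K : Submodule ℝ E := LinearMap.ker (A p₀ : E →ₗ[ℝ] F) with hK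
  have hKdim : finrank ℝ K = finrank ℝ E - finrank ℝ F := by
    have h1 := LinearMap.finrank_range_add_finrank_ker (A p₀ : E →ₗ[ℝ] F)
    rw [LinearMap.range_eq_top.2 hs, finrank_top] at h1
    rw [hK]; omega
  -- the family of endomorphisms `A p ∘ R`
  set B : P → F →L[ℝ] F := fun p => (A p).comp R with hB
  have hBc : ContDiffOn ℝ 1 B O := hA.clm_comp contDiffOn_const
  have hB0 : B p₀ = 1 := by
    ext y; simp [hB, hAR]
  have hunit : ∀ᶠ p in 𝓝 p₀, IsUnit (B p) := by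
    have hcont : ContinuousAt B p₀ := (hBc.continuousOn.continuousAt (hO.mem_nhds hp₀))
    have hopen : {x : F →L[ℝ] F | IsUnit x} ∈ 𝓝 (B p₀) := by
      rw [hB0]
      exact (Units.isOpen (R := F →L[ℝ] F)).mem_nhds isUnit_one
    exact hcont hopen
  obtain ⟨r, hr, hball⟩ := Metric.mem_nhds_iff.1
    (Filter.inter_mem (hO.mem_nhds hp₀) hunit)
  set V : Set P := Metric.ball p₀ r with hV
  have hVO : V ⊆ O := fun p hp => (hball hp).1
  have hVu : ∀ p ∈ V, IsUnit (B p) := fun p hp => (hball hp).2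
  refine ⟨V, Metric.ball_mem_nhds _ hr, ?_⟩
  -- parametrisation
  set Φ : P × K → E := fun x =>
    (x.2 : E) - R ((Ring.inverse (B x.1)) (A x.1 (x.2 : E))) with hΦ
  have hinv : ContDiffOn ℝ 1 (fun p => Ring.inverse (B p)) V := by
    intro p hp
    obtain ⟨u, hu⟩ := hVu p hp
    have h1 : ContDiffAt ℝ 1 (Ring.inverse : (F →L[ℝ] F) → (F →L[ℝ] F)) (B p) := by
      rw [← hu]; exact contDiffAt_ringInverse ℝ u
    exact h1.comp_contDiffWithinAt p ((hBc p (hVO hp)).mono hVO)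
  have hfst : MapsTo (Prod.fst : P × K → P) (V ×ˢ (univ : Set K)) V := fun x hx => hx.1
  have hsub : ContDiffOn ℝ 1 (fun x : P × K => (x.2 : E)) (V ×ˢ (univ : Set K)) :=
    ((K.subtypeL.contDiff).comp contDiff_snd).contDiffOn
  have hA' : ContDiffOn ℝ 1 (fun x : P × K => A x.1) (V ×ˢ (univ : Set K)) :=
    (hA.mono hVO).comp contDiff_fst.contDiffOn hfst
  have hinv' : ContDiffOn ℝ 1 (fun x : P × K => Ring.inverse (B x.1)) (V ×ˢ (univ : Set K)) :=
    hinv.comp contDiff_fst.contDiffOn hfst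
  have hΦc : ContDiffOn ℝ 1 Φ (V ×ˢ (univ : Set K)) :=
    hsub.sub (contDiffOn_const.clm_apply (hinv'.clm_apply (hA'.clm_apply hsub)))
  have hconv : Convex ℝ (V ×ˢ (univ : Set K)) := (convex_ball _ _).prod convex_univ
  have hincl : {e : E | ∃ p ∈ V, A p e = 0} ⊆ Φ '' (V ×ˢ (univ : Set K)) := by
    rintro e ⟨p, hp, he⟩
    have hk : e - R (A p₀ e) ∈ K := by
      rw [hK, LinearMap.mem_ker]
      simp [hAR]
    refine ⟨(p, ⟨e - R (A p₀ e), hk⟩), ⟨hp, mem_univ _⟩, ?_⟩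
    have h1 : A p (e - R (A p₀ e)) = - B p (A p₀ e) := by
      simp [hB, he]
    have h2 : (Ring.inverse (B p)) (B p (A p₀ e)) = A p₀ e := by
      have := congrArg (fun f : F →L[ℝ] F => f (A p₀ e)) (Ring.inverse_mul_cancel _ (hVu p hp))
      simpa using this
    simp only [hΦ]
    rw [h1, map_neg, h2, map_neg]
    abel
  calc dimH {e : E | ∃ p ∈ V, A p e = 0} ≤ dimH (Φ '' (V ×ˢ (univ : Set K))) := dimH_mono hincl
    _ ≤ dimH (V ×ˢ (univ : Set K)) := hΦc.dimH_image_le hconv Subset.rfl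
    _ ≤ dimH (univ : Set (P × K)) := dimH_mono (subset_univ _)
    _ = (finrank ℝ (P × K) : ℝ≥0∞) := Real.dimH_univ_eq_finrank _
    _ = _ := by rw [Module.finrank_prod, hKdim]

theorem generic_ne_zero {O : Set P} (hO : IsOpen O) {A : P → E →L[ℝ] F}
    (hA : ContDiffOn ℝ 1 A O) (hs : ∀ p ∈ O, Function.Surjective (A p)) :
    dimH {e : E | ∃ p ∈ O, A p e = 0} ≤
      ((finrank ℝ P + (finrank ℝ E - finrank ℝ F) : ℕ) : ℝ≥0∞) := by
  choose! V hV hd using fun p (hp : p ∈ O) => local_dimH hO hA hp (hs p hp)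
  obtain ⟨t, htO, htc, hcov⟩ := TopologicalSpace.countable_cover_nhdsWithin
    (f := V) (s := O) (fun p hp => mem_nhdsWithin_of_mem_nhds (hV p hp))
  have hsub : {e : E | ∃ p ∈ O, A p e = 0} ⊆ ⋃ p ∈ t, {e : E | ∃ p' ∈ V p, A p' e = 0} := by
    rintro e ⟨p, hp, he⟩
    obtain ⟨x, hx, hpx⟩ := mem_iUnion₂.1 (hcov hp)
    exact mem_iUnion₂.2 ⟨x, hx, p, hpx, he⟩
  refine (dimH_mono hsub).trans ?_
  rw [dimH_bUnion htc]
  exact iSup₂_le fun p hp => hd p (htO hp)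

end Generic

section Bertini

variable {n q M : ℕ}

/-- the multipliers, normalised by `1` at `j₀`. -/
noncomputable def mult (j₀ : Fin q) (m : {i : Fin q // i ≠ j₀} → ℂ) : Fin q → ℂ :=
  fun i => if h : i ≠ j₀ then m ⟨i, h⟩ else 1

/-- the linear conditions on the coefficients at a point with multipliers. -/
noncomputable def cond (v : (Fin n → ℂ) → Fin M → ℂ) (j₀ : Fin q)
    (p : (Fin n → ℂ) × ({i : Fin q // i ≠ j₀} → ℂ)) :
    (Fin q → Fin M → ℂ) →ₗ[ℂ] ((Fin q → ℂ) × (Fin n → ℂ)) where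
  toFun c := (fun i => ∑ j, c i j * v p.1 j,
    fun l => ∑ i, mult j₀ p.2 i * ∑ j, c i j * fderiv ℂ v p.1 (Pi.single l 1) j)
  map_add' c d := by
    ext i
    · simp [add_mul, Finset.sum_add_distrib]
    · simp [add_mul, mul_add, Finset.sum_add_distrib]
  map_smul' a c := by
    ext i
    · simp [mul_assoc, Finset.mul_sum]
    · simp only [Pi.smul_apply, smul_eq_mul, RingHom.id_apply, Prod.smul_mk, mul_assoc,
        Finset.mul_sum]
      refine Finset.sum_congr rfl fun i _ => Finset.sum_congr rfl fun j _ => ?_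
      ring

/-- the same as a continuous real linear map. -/
noncomputable def condR (v : (Fin n → ℂ) → Fin M → ℂ) (j₀ : Fin q)
    (p : (Fin n → ℂ) × ({i : Fin q // i ≠ j₀} → ℂ)) :
    (Fin q → Fin M → ℂ) →L[ℝ] ((Fin q → ℂ) × (Fin n → ℂ)) :=
  (LinearMap.toContinuousLinearMap (cond v j₀ p)).restrictScalars ℝ

theorem condR_apply (v : (Fin n → ℂ) → Fin M → ℂ) (j₀ : Fin q)
    (p : (Fin n → ℂ) × ({i : Fin q // i ≠ j₀} → ℂ)) (c : Fin q → Fin M → ℂ) :
    condR v j₀ p c = (fun i => ∑ j, c i j * v p.1 j,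
      fun l => ∑ i, mult j₀ p.2 i * ∑ j, c i j * fderiv ℂ v p.1 (Pi.single l 1) j) := rfl

theorem condR_contDiffOn {U : Set (Fin n → ℂ)} {v : (Fin n → ℂ) → Fin M → ℂ}
    (hv : ∀ z ∈ U, AnalyticAt ℂ v z) (j₀ : Fin q) :
    ContDiffOn ℝ 1 (condR v j₀) (U ×ˢ (univ : Set ({i : Fin q // i ≠ j₀} → ℂ))) := by
  have hfst : MapsTo (Prod.fst : (Fin n → ℂ) × ({i : Fin q // i ≠ j₀} → ℂ) → (Fin n → ℂ))
      (U ×ˢ (univ : Set ({i : Fin q // i ≠ j₀} → ℂ))) U := fun x hx => hx.1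
  have h1 : ContDiffOn ℝ 1 v U := fun z hz =>
    (((hv z hz).contDiffAt (n := 1)).restrict_scalars ℝ).contDiffWithinAt
  have h2 : ContDiffOn ℝ 1 (fderiv ℂ v) U := fun z hz =>
    ((((hv z hz).fderiv).contDiffAt (n := 1)).restrict_scalars ℝ).contDiffWithinAt
  have h1' : ContDiffOn ℝ 1 (fun p : (Fin n → ℂ) × ({i : Fin q // i ≠ j₀} → ℂ) => v p.1)
      (U ×ˢ (univ : Set ({i : Fin q // i ≠ j₀} → ℂ))) := h1.comp contDiff_fst.contDiffOn hfst
  have h2' : ContDiffOn ℝ 1 (fun p : (Fin n → ℂ) × ({i : Fin q // i ≠ j₀} → ℂ) =>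
      fderiv ℂ v p.1) (U ×ˢ (univ : Set ({i : Fin q // i ≠ j₀} → ℂ))) :=
    h2.comp contDiff_fst.contDiffOn hfst
  have h1j : ∀ j, ContDiffOn ℝ 1
      (fun p : (Fin n → ℂ) × ({i : Fin q // i ≠ j₀} → ℂ) => v p.1 j)
      (U ×ˢ (univ : Set ({i : Fin q // i ≠ j₀} → ℂ))) := fun j => (contDiffOn_pi.1 h1') j
  have h2j : ∀ l j, ContDiffOn ℝ 1
      (fun p : (Fin n → ℂ) × ({i : Fin q // i ≠ j₀} → ℂ) =>
        fderiv ℂ v p.1 (Pi.single l 1) j)
      (U ×ˢ (univ : Set ({i : Fin q // i ≠ j₀} → ℂ))) := fun l j => by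
    have h3 : ContDiffOn ℝ 1 (fun p : (Fin n → ℂ) × ({i : Fin q // i ≠ j₀} → ℂ) =>
        fderiv ℂ v p.1 (Pi.single l 1)) (U ×ˢ (univ : Set ({i : Fin q // i ≠ j₀} → ℂ))) := by
      have hev : ContDiff ℝ 1 (fun L : (Fin n → ℂ) →L[ℂ] (Fin M → ℂ) =>
          L (Pi.single l (1:ℂ))) :=
        (((ContinuousLinearMap.apply ℂ (Fin M → ℂ)
          (Pi.single l (1:ℂ) : Fin n → ℂ)).restrictScalars ℝ).contDiff)
      exact hev.comp_contDiffOn h2'
    exact (contDiffOn_pi.1 h3) j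
  have hm : ∀ i, ContDiffOn ℝ 1
      (fun p : (Fin n → ℂ) × ({i : Fin q // i ≠ j₀} → ℂ) => mult j₀ p.2 i)
      (U ×ˢ (univ : Set ({i : Fin q // i ≠ j₀} → ℂ))) := fun i => by
    by_cases h : i ≠ j₀
    · simp only [mult, h, dif_pos, ne_eq, not_false_eq_true]
      exact ((contDiff_apply ℝ ℂ (⟨i, h⟩ : {i : Fin q // i ≠ j₀})).comp
        contDiff_snd).contDiffOn
    · simp only [mult, h, dif_neg, not_false_eq_true]
      exact contDiffOn_const
  rw [contDiffOn_clm_apply]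
  intro c
  simp only [condR_apply]
  refine ContDiffOn.prodMk ?_ ?_
  · rw [contDiffOn_pi]
    intro i
    exact ContDiffOn.sum fun j _ => contDiffOn_const.mul (h1j j)
  · rw [contDiffOn_pi]
    intro l
    exact ContDiffOn.sum fun i _ => (hm i).mul
      (ContDiffOn.sum fun j _ => contDiffOn_const.mul (h2j l j))

theorem condR_surjective {v : (Fin n → ℂ) → Fin M → ℂ} {z : Fin n → ℂ}
    (hjet : ∀ (a : ℂ) (ξ : Fin n → ℂ), ∃ c : Fin M → ℂ, ∑ j, c j * v z j = a ∧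
      ∀ w, ∑ j, c j * fderiv ℂ v z w j = ∑ i, ξ i * w i)
    (j₀ : Fin q) (m : {i : Fin q // i ≠ j₀} → ℂ) :
    Function.Surjective (condR v j₀ (z, m)) := by
  rintro ⟨a, ξ⟩
  choose c hc0 hc1 using hjet
  refine ⟨fun i => if i = j₀ then c (a i) ξ else c (a i) 0, ?_⟩
  rw [condR_apply]
  refine Prod.ext ?_ ?_
  · funext i
    by_cases h : i = j₀
    · simp [h, hc0]
    · simp [h, hc0]
  · funext l
    simp only
    rw [Finset.sum_eq_single j₀]
    · simp [mult, hc1, Pi.single_apply]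
    · intro i _ hi
      simp [hi, hc1]
    · simp

/-- the bad coefficients. -/
def bad {κ : Type*} (q : ℕ) (U : κ → Set (Fin n → ℂ)) (v : κ → (Fin n → ℂ) → Fin M → ℂ) :
    Set (Fin q → Fin M → ℂ) :=
  {c | ∃ k, ∃ z ∈ U k, (∀ i, ∑ j, c i j * v k z j = 0) ∧
    ¬ Function.Surjective (fun w => fun i => ∑ j, c i j * fderiv ℂ (v k) z w j :
      (Fin n → ℂ) → (Fin q → ℂ))}

theorem bad_subset {κ : Type*} (U : κ → Set (Fin n → ℂ))
    (v : κ → (Fin n → ℂ) → Fin M → ℂ) :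
    bad q U v ⊆ ⋃ x : κ × Fin q, {c : Fin q → Fin M → ℂ |
      ∃ p ∈ U x.1 ×ˢ (univ : Set ({i : Fin q // i ≠ x.2} → ℂ)),
        condR (v x.1) x.2 p c = 0} := by
  rintro c ⟨k, z, hz, hc, hns⟩
  -- the linear map
  let T : (Fin n → ℂ) →ₗ[ℂ] (Fin q → ℂ) :=
    { toFun := fun w i => ∑ j, c i j * fderiv ℂ (v k) z w j
      map_add' := fun w w' => by
        ext i; simp [mul_add, Finset.sum_add_distrib]
      map_smul' := fun a w => by
        ext i
        simp only [map_smul, Pi.smul_apply, smul_eq_mul, RingHom.id_apply, Finset.mul_sum]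
        exact Finset.sum_congr rfl fun j _ => by ring }
  have hT : ¬ Function.Surjective T := hns
  have hlt : LinearMap.range T < ⊤ :=
    lt_top_iff_ne_top.2 fun h => hT (LinearMap.range_eq_top.1 h)
  obtain ⟨f, hf0, hf⟩ := Submodule.exists_le_ker_of_lt_top _ hlt
  have hfe : ∀ y : Fin q → ℂ, f y = ∑ i, f (Pi.single i 1) * y i := by
    intro y
    conv_lhs => rw [pi_eq_sum_univ' y]
    simp [map_sum, mul_comm]
  obtain ⟨j₀, hj₀⟩ : ∃ j₀, f (Pi.single j₀ 1) ≠ 0 := by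
    by_contra hcon
    push Not at hcon
    exact hf0 (LinearMap.ext fun y => by rw [hfe]; simp [hcon])
  refine mem_iUnion.2 ⟨(k, j₀), (z, fun i => f (Pi.single i.1 1) / f (Pi.single j₀ 1)),
    ⟨hz, mem_univ _⟩, ?_⟩
  have hmult : ∀ i, mult j₀ (fun i : {i : Fin q // i ≠ j₀} =>
      f (Pi.single i.1 1) / f (Pi.single j₀ 1)) i = f (Pi.single i 1) / f (Pi.single j₀ 1) := by
    intro i
    by_cases h : i ≠ j₀
    · simp [mult, h]
    · rw [not_not] at h
      subst h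
      simp [mult, hj₀]
  rw [condR_apply]
  refine Prod.ext ?_ ?_
  · funext i
    exact hc i
  · funext l
    simp only [hmult]
    have h1 : f (T (Pi.single l 1)) = 0 := hf ⟨_, rfl⟩
    rw [hfe] at h1
    have h2 : ∑ i, f (Pi.single i 1) / f (Pi.single j₀ 1) *
        ∑ j, c i j * fderiv ℂ (v k) z (Pi.single l 1) j =
        (f (Pi.single j₀ 1))⁻¹ * ∑ i, f (Pi.single i 1) * T (Pi.single l 1) i := by
      rw [Finset.mul_sum]
      refine Finset.sum_congr rfl fun i _ => ?_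
      simp only [T, LinearMap.coe_mk, AddHom.coe_mk]
      ring
    rw [h2, h1, mul_zero]
    rfl

/-- The bad coefficients have positive codimension. -/
theorem bad_dimH {κ : Type*} [Countable κ] (U : κ → Set (Fin n → ℂ))
    (hU : ∀ k, IsOpen (U k)) (v : κ → (Fin n → ℂ) → Fin M → ℂ)
    (hv : ∀ k, ∀ z ∈ U k, AnalyticAt ℂ (v k) z)
    (hjet : ∀ k, ∀ z ∈ U k, ∀ (a : ℂ) (ξ : Fin n → ℂ), ∃ c : Fin M → ℂ,
      ∑ j, c j * v k z j = a ∧ ∀ w, ∑ j, c j * fderiv ℂ (v k) z w j = ∑ i, ξ i * w i) :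
    bad q U v = ∅ ∨ dimH (bad q U v) < finrank ℝ (Fin q → Fin M → ℂ) := by
  by_cases hne : (bad q U v).Nonempty
  swap
  · exact Or.inl (not_nonempty_iff_eq_empty.1 hne)
  right
  obtain ⟨c, k, z, hz, hc, hns⟩ := hne
  have hq : 0 < q := by
    rcases Nat.eq_zero_or_pos q with h | h
    · subst h
      exact absurd (fun y => ⟨0, Subsingleton.elim _ _⟩) hns
    · exact h
  have hFE : finrank ℝ ((Fin q → ℂ) × (Fin n → ℂ)) ≤ finrank ℝ (Fin q → Fin M → ℂ) := by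
    have hs := condR_surjective (hjet k z hz) (⟨0, hq⟩ : Fin q) (fun _ => 0)
    have := LinearMap.finrank_le_finrank_of_surjective
      (f := (condR (v k) (⟨0, hq⟩ : Fin q) (z, fun _ => 0) :
        (Fin q → Fin M → ℂ) →ₗ[ℝ] ((Fin q → ℂ) × (Fin n → ℂ)))) hs
    exact this
  have hFd : finrank ℝ ((Fin q → ℂ) × (Fin n → ℂ)) = 2 * (q + n) := by
    rw [finrank_real_of_complex, Module.finrank_prod]
    simp
  have hPd : ∀ j₀ : Fin q, finrank ℝ ((Fin n → ℂ) × ({i : Fin q // i ≠ j₀} → ℂ)) =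
      2 * (n + (q - 1)) := fun j₀ => by
    rw [finrank_real_of_complex, Module.finrank_prod]
    simp
  have hbound : ∀ x : κ × Fin q, dimH {c : Fin q → Fin M → ℂ |
      ∃ p ∈ U x.1 ×ˢ (univ : Set ({i : Fin q // i ≠ x.2} → ℂ)),
        condR (v x.1) x.2 p c = 0} ≤
      ((finrank ℝ (Fin q → Fin M → ℂ) - 2 : ℕ) : ℝ≥0∞) := by
    intro x
    have h := generic_ne_zero ((hU x.1).prod isOpen_univ)
      (condR_contDiffOn (hv x.1) x.2) (by
        rintro ⟨z, m⟩ ⟨hz, -⟩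
        exact condR_surjective (hjet x.1 z hz) x.2 m)
    refine h.trans ?_
    rw [hPd, hFd]
    rw [hFd] at hFE
    exact_mod_cast (by omega)
  have h2 : dimH (bad q U v) ≤ ((finrank ℝ (Fin q → Fin M → ℂ) - 2 : ℕ) : ℝ≥0∞) := by
    refine (dimH_mono (bad_subset U v)).trans ?_
    rw [dimH_iUnion]
    exact iSup_le hbound
  refine lt_of_le_of_lt h2 ?_
  rw [hFd] at hFE
  exact_mod_cast (by omega)

/-- The good coefficients are dense. -/
theorem bertini_dense {κ : Type*} [Countable κ] (U : κ → Set (Fin n → ℂ))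
    (hU : ∀ k, IsOpen (U k)) (v : κ → (Fin n → ℂ) → Fin M → ℂ)
    (hv : ∀ k, ∀ z ∈ U k, AnalyticAt ℂ (v k) z)
    (hjet : ∀ k, ∀ z ∈ U k, ∀ (a : ℂ) (ξ : Fin n → ℂ), ∃ c : Fin M → ℂ,
      ∑ j, c j * v k z j = a ∧ ∀ w, ∑ j, c j * fderiv ℂ (v k) z w j = ∑ i, ξ i * w i) :
    Dense (bad q U v)ᶜ := by
  rcases bad_dimH (q := q) U hU v hv hjet with h | h
  · rw [h, compl_empty]; exact dense_univ
  · exact dense_compl_of_dimH_lt_finrank h

/-- **Bertini on open subsets of `ℂⁿ`.** -/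
theorem bertini {κ : Type*} [Countable κ] (U : κ → Set (Fin n → ℂ))
    (hU : ∀ k, IsOpen (U k)) (v : κ → (Fin n → ℂ) → Fin M → ℂ)
    (hv : ∀ k, ∀ z ∈ U k, AnalyticAt ℂ (v k) z)
    (hjet : ∀ k, ∀ z ∈ U k, ∀ (a : ℂ) (ξ : Fin n → ℂ), ∃ c : Fin M → ℂ,
      ∑ j, c j * v k z j = a ∧ ∀ w, ∑ j, c j * fderiv ℂ (v k) z w j = ∑ i, ξ i * w i) :
    ∃ c : Fin q → Fin M → ℂ, ∀ k, ∀ z ∈ U k, (∀ i, ∑ j, c i j * v k z j = 0) →
      Function.Surjective (fun w => fun i => ∑ j, c i j * fderiv ℂ (v k) z w j :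
        (Fin n → ℂ) → (Fin q → ℂ)) := by
  obtain ⟨c, hc⟩ := (bertini_dense (q := q) U hU v hv hjet).nonempty
  refine ⟨c, fun k z hz h0 => ?_⟩
  by_contra hns
  exact hc ⟨k, z, hz, h0, hns⟩

end Bertini

end Vale.Agent.P299.H949
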